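import Vale.Agent.H28.BC.Structure

/-!
# P105: structure of the set of singular Bernoulli convolutions

Let `ν_λ = bernoulliConv λ` be the law of `∑_{n ≥ 0} ε_n λ^n` and let
`singSet = {λ ∈ (1/2, 1) | ν_λ ⟂ Lebesgue}`. We prove:

1. `singSet` is a `G_δ` set;
2. `singSet` is closed under powers `λ ↦ λ^k` (as long as `λ^k > 1/2`);
3. parameters of `(1/2, 1)` outside `singSet` are absolutely continuous (Jessen, Wintner);
4. gap principle: if `ν_μ` is absolutely continuous for all `μ` in an interval `(a, b)`,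
   then `ν_λ` is absolutely continuous for all `λ ∈ (a / b, 1)`;
5. dichotomy: either `ν_λ` is absolutely continuous for all `λ` close enough to `1`, or the
   singular parameters are generic in `(1/2, 1)`: the non-singular ones form a meagre set, and
   the singular ones stay dense after removing any countable set.
-/

namespace Vale.Agent.Results.P105.A_SingularSetStructure

open MeasureTheory Set Vale.Agent.H28

theorem result :
    IsGδ singSet ∧
    (∀ lam ∈ singSet, ∀ k : ℕ, k ≠ 0 → (1 : ℝ) / 2 < lam ^ k → lam ^ k ∈ singSet) ∧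
    (∀ lam ∈ Ioo (1 / 2 : ℝ) 1, lam ∉ singSet → bernoulliConv lam ≪ (volume : Measure ℝ)) ∧
    (∀ a b : ℝ, 0 < a → a < b → b ≤ 1 →
      (∀ μ ∈ Ioo a b, bernoulliConv μ ≪ (volume : Measure ℝ)) →
      ∀ lam ∈ Ioo (a / b) 1, bernoulliConv lam ≪ (volume : Measure ℝ)) ∧
    ((∃ η : ℝ, 0 < η ∧ ∀ lam ∈ Ioo (1 - η) 1, bernoulliConv lam ≪ (volume : Measure ℝ)) ∨
      (IsMeagre (Ioo (1 / 2 : ℝ) 1 \ singSet) ∧
        ∀ C : Set ℝ, C.Countable → Ioo (1 / 2 : ℝ) 1 ⊆ closure (singSet \ C))) :=
  singSet_structure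

end Vale.Agent.Results.P105.A_SingularSetStructure
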