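import Vale.Agent.H28.BC.Pisot

/-!
# P105: the Pisot conjecture for singular Bernoulli convolutions reduces to `λ ≤ 2^(-1/3)`

If every singular `ν_μ` with `1/2 < μ ≤ 2^(-1/3)` (written `μ^3 ≤ 1/2`) has `μ⁻¹` Pisot, then
every singular `ν_λ` with `1/2 < λ < 1` has `λ⁻¹` Pisot.
-/

namespace Vale.Agent.Results.P105.B_PisotRangeReduction

open MeasureTheory Vale.Agent.H28

theorem result
    (H : ∀ μ : ℝ, 1 / 2 < μ → μ ^ 3 ≤ 1 / 2 →
      bernoulliConv μ ⟂ₘ (volume : Measure ℝ) → IsPisot μ⁻¹) :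
    ∀ lam : ℝ, 1 / 2 < lam → lam < 1 →
      bernoulliConv lam ⟂ₘ (volume : Measure ℝ) → IsPisot lam⁻¹ :=
  pisot_range_reduction H

end Vale.Agent.Results.P105.B_PisotRangeReduction
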