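import Vale.Agent.H28.BC.Structure
import Vale.Agent.H28.BC.Pisot

/-!
# P105: structure of the set of singular Bernoulli convolutions, and the range reduction

One theorem with two parts: the statements of the hand-ins `A_SingularSetStructure` and
`B_PisotRangeReduction`, verbatim.  Let `ν_λ = bernoulliConv λ` be the law of `∑_{n ≥ 0} ε_n λ^n`
and `singSet = {λ ∈ (1/2, 1) | ν_λ ⟂ Lebesgue}`.

First part (items 1 to 5): `singSet` is a `G_δ` set; it is closed under powers `λ ↦ λ^k` as long as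
`λ^k > 1/2`; parameters of `(1/2, 1)` outside it are absolutely continuous; the gap principle; and
the dichotomy (absolute continuity near `1`, or singular parameters generic in `(1/2, 1)`).

Second part (item 6): if every singular `ν_μ` with `1/2 < μ` and `μ^3 ≤ 1/2` has `μ⁻¹` Pisot, then
every singular `ν_λ` with `1/2 < λ < 1` has `λ⁻¹` Pisot.
-/

namespace Vale.Agent.Results.P105.C_StructureAndRangeReduction

open MeasureTheory Set Vale.Agent.H28

theorem result :
    (IsGδ singSet ∧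
      (∀ lam ∈ singSet, ∀ k : ℕ, k ≠ 0 → (1 : ℝ) / 2 < lam ^ k → lam ^ k ∈ singSet) ∧
      (∀ lam ∈ Ioo (1 / 2 : ℝ) 1, lam ∉ singSet → bernoulliConv lam ≪ (volume : Measure ℝ)) ∧
      (∀ a b : ℝ, 0 < a → a < b → b ≤ 1 →
        (∀ μ ∈ Ioo a b, bernoulliConv μ ≪ (volume : Measure ℝ)) →
        ∀ lam ∈ Ioo (a / b) 1, bernoulliConv lam ≪ (volume : Measure ℝ)) ∧
      ((∃ η : ℝ, 0 < η ∧ ∀ lam ∈ Ioo (1 - η) 1, bernoulliConv lam ≪ (volume : Measure ℝ)) ∨
        (IsMeagre (Ioo (1 / 2 : ℝ) 1 \ singSet) ∧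
          ∀ C : Set ℝ, C.Countable → Ioo (1 / 2 : ℝ) 1 ⊆ closure (singSet \ C)))) ∧
    ((∀ μ : ℝ, 1 / 2 < μ → μ ^ 3 ≤ 1 / 2 →
        bernoulliConv μ ⟂ₘ (volume : Measure ℝ) → IsPisot μ⁻¹) →
      ∀ lam : ℝ, 1 / 2 < lam → lam < 1 →
        bernoulliConv lam ⟂ₘ (volume : Measure ℝ) → IsPisot lam⁻¹) :=
  ⟨singSet_structure, fun H => pisot_range_reduction H⟩

end Vale.Agent.Results.P105.C_StructureAndRangeReduction
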